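import Vale.Agent.P159.T1.D.H414.Pol
import Vale.Agent.P159.T1.D.H770.RingDefs

/-!
P159 T1, D.LOW: the rows POL.A and POL.B.
-/

open MeasureTheory Set Filter Topology

namespace Vale.Agent.P159.T1.D.H414

theorem pol_eq (η u : ℝ → ℝ) : D.pol η u = pol η u := rfl

/-- POL.A -/
theorem polA (η u : ℝ → ℝ) (hη : ContDiff ℝ 2 η) (hu : ContDiff ℝ 2 u)
    (hηc : HasCompactSupport η) (hη0 : (0 : ℝ) ∉ tsupport η)
    (hu0 : tsupport u ⊆ Ioo (-Real.pi) Real.pi) :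
    ContDiff ℝ 2 (D.pol η u) ∧ HasCompactSupport (D.pol η u) ∧
      ∀ z ∈ tsupport (D.pol η u), z ≠ 0 ∧ lr z ∈ tsupport η ∧ ar z ∈ tsupport u := by
  rw [pol_eq]
  refine ⟨contDiff_pol hη hu hηc hη0 hu0,
    hasCompactSupport_pol hηc hη0 (hasCompactSupport_of_Ioo hu0), fun z hz => ?_⟩
  obtain ⟨h1, h2⟩ := mem_tsupport_pol hηc hη0 hu0 hz
  refine ⟨?_, h1, h2⟩
  rintro rfl
  rw [lg_zero] at h1
  exact hη0 h1

/-- POL.B -/
theorem stmtPolB : StmtPolB := by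
  intro η u hη hu hηc hu0
  have h1 : ∫ θ, u θ ^ 2 = ∫ θ in Ioo (-Real.pi) Real.pi, u θ ^ 2 := by
    refine (setIntegral_eq_integral_of_forall_compl_eq_zero fun θ hθ => ?_).symm
    rw [image_eq_zero_of_notMem_tsupport fun h => hθ (hu0 h)]
    simp
  have h2 : ∫ θ, deriv u θ ^ 2 = ∫ θ in Ioo (-Real.pi) Real.pi, deriv u θ ^ 2 := by
    refine (setIntegral_eq_integral_of_forall_compl_eq_zero fun θ hθ => ?_).symm
    rw [deriv_eq_zero_of_notMem fun h => hθ (hu0 h)]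
    simp
  rw [h1, h2, pol_eq]
  exact Dir_pol (hη.of_le (by norm_num)) (hu.of_le (by norm_num)) hηc hu0

end Vale.Agent.P159.T1.D.H414
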