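import Mathlib
import Vale.Agent.P159.T1.D.Stmts

/-!
P159 T1, D.LOW: test functions in polar coordinates.

`lg z = log |z|`, `ag z = arg z ∈ (-π, π]`, `pol η u z = η (log |z|) u (arg z)`.
-/

open MeasureTheory Set Filter Topology
open scoped Real

namespace Vale.Agent.P159.T1.D.H414

noncomputable section

/-- logarithm of the norm -/
def lg (z : ℝ × ℝ) : ℝ := Real.log (Real.sqrt (z.1 ^ 2 + z.2 ^ 2))

/-- the argument in `(-π, π]` -/
def ag (z : ℝ × ℝ) : ℝ := Complex.arg (Complex.equivRealProd.symm z)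

/-- the function `η(τ) u(θ)` -/
def pol (η u : ℝ → ℝ) (z : ℝ × ℝ) : ℝ := η (lg z) * u (ag z)

/-- the point with coordinates `(τ, θ)` -/
def ept (p : ℝ × ℝ) : ℝ × ℝ := (Real.exp p.1 * Real.cos p.2, Real.exp p.1 * Real.sin p.2)

theorem tau_eq_lg (P : Z2) : tau P = lg ((P.1 : ℝ), (P.2 : ℝ)) := rfl

/-- the point as a complex number -/
def cpt (z : ℝ × ℝ) : ℂ := Complex.equivRealProdCLM.symm z

theorem cpt_eq (z : ℝ × ℝ) : cpt z = Complex.equivRealProd.symm z := rfl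

theorem cpt_re (z : ℝ × ℝ) : (cpt z).re = z.1 := rfl

theorem cpt_im (z : ℝ × ℝ) : (cpt z).im = z.2 := rfl

theorem norm_cpt (z : ℝ × ℝ) : ‖cpt z‖ = Real.sqrt (z.1 ^ 2 + z.2 ^ 2) := by
  rw [Complex.norm_eq_sqrt_sq_add_sq, cpt_re, cpt_im]

theorem lg_eq_re (z : ℝ × ℝ) : lg z = (Complex.log (cpt z)).re := by
  rw [Complex.log_re, norm_cpt, lg]

theorem ag_eq_im (z : ℝ × ℝ) : ag z = (Complex.log (cpt z)).im := by
  rw [Complex.log_im, ag, cpt_eq]

theorem cpt_ne_zero {z : ℝ × ℝ} (hz : z ≠ 0) : cpt z ≠ 0 := fun h => by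
  refine hz (Prod.ext ?_ ?_)
  · rw [← cpt_re, h]; rfl
  · rw [← cpt_im, h]; rfl

theorem normSq_pos {z : ℝ × ℝ} (hz : z ≠ 0) : 0 < z.1 ^ 2 + z.2 ^ 2 := by
  by_contra hcon
  push Not at hcon
  refine hz (Prod.ext ?_ ?_)
  · change z.1 = 0
    nlinarith [sq_nonneg z.1, sq_nonneg z.2]
  · change z.2 = 0
    nlinarith [sq_nonneg z.1, sq_nonneg z.2]

theorem exp_lg {z : ℝ × ℝ} (hz : z ≠ 0) : Real.exp (lg z) = Real.sqrt (z.1 ^ 2 + z.2 ^ 2) := by
  rw [lg, Real.exp_log (Real.sqrt_pos.2 (normSq_pos hz))]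

theorem ept_lg_ag {z : ℝ × ℝ} (hz : z ≠ 0) : ept (lg z, ag z) = z := by
  have h := Complex.norm_mul_cos_add_sin_mul_I (cpt z)
  have h1 : Real.exp (lg z) = ‖cpt z‖ := by rw [exp_lg hz, norm_cpt]
  have hr := congrArg Complex.re h
  have hi := congrArg Complex.im h
  rw [cpt_re] at hr
  rw [cpt_im] at hi
  have ha : ag z = (cpt z).arg := rfl
  refine Prod.ext ?_ ?_
  · change Real.exp (lg z) * Real.cos (ag z) = z.1
    rw [h1, ha, ← hr]
    rw [← Complex.ofReal_cos, ← Complex.ofReal_sin]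
    simp
  · change Real.exp (lg z) * Real.sin (ag z) = z.2
    rw [h1, ha, ← hi]
    rw [← Complex.ofReal_cos, ← Complex.ofReal_sin]
    simp

theorem ept_normSq (p : ℝ × ℝ) : (ept p).1 ^ 2 + (ept p).2 ^ 2 = Real.exp p.1 ^ 2 := by
  simp only [ept]
  linear_combination Real.exp p.1 ^ 2 * Real.cos_sq_add_sin_sq p.2

theorem lg_ept (p : ℝ × ℝ) : lg (ept p) = p.1 := by
  rw [lg, ept_normSq, Real.sqrt_sq (Real.exp_pos _).le, Real.log_exp]

theorem ag_ept {p : ℝ × ℝ} (hp : p.2 ∈ Ioc (-π) π) : ag (ept p) = p.2 := by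
  have h := Complex.arg_mul_cos_add_sin_mul_I (Real.exp_pos p.1) hp
  rw [← h, ag]
  congr 1
  apply Complex.ext
  · rw [← Complex.ofReal_cos, ← Complex.ofReal_sin]
    simp [ept]
  · rw [← Complex.ofReal_cos, ← Complex.ofReal_sin]
    simp [ept]

theorem continuous_ept : Continuous ept := by
  unfold ept
  fun_prop

theorem ept_ne_zero (p : ℝ × ℝ) : ept p ≠ 0 := fun h => by
  have h1 := ept_normSq p
  rw [h] at h1
  have h2 := Real.exp_pos p.1
  have h3 : (0 : ℝ) = Real.exp p.1 ^ 2 := by simpa using h1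
  exact (pow_pos h2 2).ne h3

theorem lg_zero : lg 0 = 0 := by simp [lg]

variable {η u : ℝ → ℝ}

/-- the set which carries `pol η u` -/
def pset (η u : ℝ → ℝ) : Set (ℝ × ℝ) := ept '' (tsupport η ×ˢ tsupport u)

theorem isCompact_pset (hη : HasCompactSupport η) (hu : HasCompactSupport u) :
    IsCompact (pset η u) :=
  (hη.isCompact.prod hu.isCompact).image continuous_ept

theorem not_mem_pset (hη0 : (0 : ℝ) ∉ tsupport η) {z : ℝ × ℝ} (hz : z ∉ pset η u) :
    lg z ∉ tsupport η ∨ ag z ∉ tsupport u := by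
  by_contra hcon
  push Not at hcon
  rcases eq_or_ne z 0 with rfl | h0
  · rw [lg_zero] at hcon
    exact hη0 hcon.1
  · exact hz ⟨_, hcon, ept_lg_ag h0⟩

theorem not_mem_pset' {z : ℝ × ℝ} (h0 : z ≠ 0) (hz : z ∉ pset η u) :
    lg z ∉ tsupport η ∨ ag z ∉ tsupport u := by
  by_contra hcon
  push Not at hcon
  exact hz ⟨_, hcon, ept_lg_ag h0⟩

theorem mem_pset (hu0 : tsupport u ⊆ Ioo (-π) π) {z : ℝ × ℝ} (hz : z ∈ pset η u) :
    lg z ∈ tsupport η ∧ ag z ∈ tsupport u ∧ cpt z ∈ Complex.slitPlane := by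
  obtain ⟨p, hp, rfl⟩ := hz
  have h1 := hu0 hp.2
  have h2 : ag (ept p) = p.2 := ag_ept ⟨h1.1, h1.2.le⟩
  rw [lg_ept, h2]
  refine ⟨hp.1, hp.2, ?_⟩
  rw [Complex.mem_slitPlane_iff_arg]
  refine ⟨?_, cpt_ne_zero (ept_ne_zero p)⟩
  intro h
  have : ag (ept p) = π := h
  rw [h2] at this
  exact h1.2.ne this

theorem pol_eq_zero (hη0 : (0 : ℝ) ∉ tsupport η) {z : ℝ × ℝ} (hz : z ∉ pset η u) :
    pol η u z = 0 := by
  rcases not_mem_pset hη0 hz with h | h
  · rw [pol, image_eq_zero_of_notMem_tsupport h, zero_mul]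
  · rw [pol, image_eq_zero_of_notMem_tsupport h, mul_zero]

theorem pol_eq_zero' {z : ℝ × ℝ} (h0 : z ≠ 0) (hz : z ∉ pset η u) : pol η u z = 0 := by
  rcases not_mem_pset' h0 hz with h | h
  · rw [pol, image_eq_zero_of_notMem_tsupport h, zero_mul]
  · rw [pol, image_eq_zero_of_notMem_tsupport h, mul_zero]

theorem tsupport_pol (hηc : HasCompactSupport η) (hη0 : (0 : ℝ) ∉ tsupport η)
    (huc : HasCompactSupport u) : tsupport (pol η u) ⊆ pset η u := by
  refine closure_minimal ?_ (isCompact_pset hηc huc).isClosed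
  intro z hz
  by_contra h
  exact hz (pol_eq_zero hη0 h)

theorem hasCompactSupport_pol (hηc : HasCompactSupport η) (hη0 : (0 : ℝ) ∉ tsupport η)
    (huc : HasCompactSupport u) : HasCompactSupport (pol η u) :=
  (isCompact_pset hηc huc).of_isClosed_subset (isClosed_tsupport _) (tsupport_pol hηc hη0 huc)

theorem hasCompactSupport_of_Ioo (hu0 : tsupport u ⊆ Ioo (-π) π) : HasCompactSupport u :=
  (isCompact_Icc (a := -π) (b := π)).of_isClosed_subset (isClosed_tsupport _)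
    (hu0.trans Ioo_subset_Icc_self)

theorem contDiffAt_lg {n : WithTop ℕ∞} {z : ℝ × ℝ} (hz : cpt z ∈ Complex.slitPlane) :
    ContDiffAt ℝ n lg z := by
  have h1 : ContDiffAt ℝ n (fun z => Complex.log (cpt z)) z :=
    ((Complex.contDiffAt_log hz).restrict_scalars ℝ).comp z
      Complex.equivRealProdCLM.symm.contDiff.contDiffAt
  have h2 : ContDiffAt ℝ n (fun z => (Complex.log (cpt z)).re) z :=
    (Complex.reCLM.contDiff.contDiffAt).comp z h1
  have h3 : lg = fun z => (Complex.log (cpt z)).re := funext lg_eq_re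
  rw [h3]
  exact h2

theorem contDiffAt_ag {n : WithTop ℕ∞} {z : ℝ × ℝ} (hz : cpt z ∈ Complex.slitPlane) :
    ContDiffAt ℝ n ag z := by
  have h1 : ContDiffAt ℝ n (fun z => Complex.log (cpt z)) z :=
    ((Complex.contDiffAt_log hz).restrict_scalars ℝ).comp z
      Complex.equivRealProdCLM.symm.contDiff.contDiffAt
  have h2 : ContDiffAt ℝ n (fun z => (Complex.log (cpt z)).im) z :=
    (Complex.imCLM.contDiff.contDiffAt).comp z h1
  have h3 : ag = fun z => (Complex.log (cpt z)).im := funext ag_eq_im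
  rw [h3]
  exact h2

/-- **`pol η u` is smooth** -/
theorem contDiff_pol {n : WithTop ℕ∞} (hη : ContDiff ℝ n η) (hu : ContDiff ℝ n u)
    (hηc : HasCompactSupport η) (hη0 : (0 : ℝ) ∉ tsupport η) (hu0 : tsupport u ⊆ Ioo (-π) π) :
    ContDiff ℝ n (pol η u) := by
  have huc := hasCompactSupport_of_Ioo hu0
  rw [contDiff_iff_contDiffAt]
  intro z
  by_cases hz : z ∈ pset η u
  · obtain ⟨-, -, h3⟩ := mem_pset hu0 hz
    exact (hη.contDiffAt.comp z (contDiffAt_lg h3)).mul (hu.contDiffAt.comp z (contDiffAt_ag h3))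
  · have h1 : pol η u =ᶠ[𝓝 z] fun _ => 0 := by
      filter_upwards [(isCompact_pset hηc huc).isClosed.isOpen_compl.mem_nhds hz] with w hw
      exact pol_eq_zero hη0 hw
    exact contDiffAt_const.congr_of_eventuallyEq h1

/-! ### derivatives -/

/-- the derivative of `log` as a real linear map -/
def dlg (z : ℝ × ℝ) : ℝ × ℝ →L[ℝ] ℂ :=
  ((ContinuousLinearMap.toSpanSingleton ℂ (cpt z)⁻¹).restrictScalars ℝ).comp
    (Complex.equivRealProdCLM.symm : ℝ × ℝ →L[ℝ] ℂ)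

theorem dlg_apply (z v : ℝ × ℝ) : dlg z v = cpt v * (cpt z)⁻¹ := rfl

theorem hasFDerivAt_log {z : ℝ × ℝ} (hz : cpt z ∈ Complex.slitPlane) :
    HasFDerivAt (fun z => Complex.log (cpt z)) (dlg z) z := by
  have h1 := ((Complex.hasStrictDerivAt_log hz).hasDerivAt.hasFDerivAt.restrictScalars ℝ)
  exact h1.comp z Complex.equivRealProdCLM.symm.hasFDerivAt

theorem hasFDerivAt_lg {z : ℝ × ℝ} (hz : cpt z ∈ Complex.slitPlane) :
    HasFDerivAt lg (Complex.reCLM.comp (dlg z)) z := by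
  have h3 : lg = fun z => (Complex.log (cpt z)).re := funext lg_eq_re
  rw [h3]
  exact Complex.reCLM.hasFDerivAt.comp z (hasFDerivAt_log hz)

theorem hasFDerivAt_ag {z : ℝ × ℝ} (hz : cpt z ∈ Complex.slitPlane) :
    HasFDerivAt ag (Complex.imCLM.comp (dlg z)) z := by
  have h3 : ag = fun z => (Complex.log (cpt z)).im := funext ag_eq_im
  rw [h3]
  exact Complex.imCLM.hasFDerivAt.comp z (hasFDerivAt_log hz)

theorem fderiv_pol_aux (hη : ContDiff ℝ 1 η) (hu : ContDiff ℝ 1 u) {z : ℝ × ℝ}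
    (hz : cpt z ∈ Complex.slitPlane) (v : ℝ × ℝ) :
    fderiv ℝ (pol η u) z v = deriv η (lg z) * u (ag z) * (cpt v * (cpt z)⁻¹).re +
      η (lg z) * deriv u (ag z) * (cpt v * (cpt z)⁻¹).im := by
  have h1 : HasDerivAt η (deriv η (lg z)) (lg z) :=
    ((hη.differentiable one_ne_zero) _).hasDerivAt
  have h2 : HasDerivAt u (deriv u (ag z)) (ag z) :=
    ((hu.differentiable one_ne_zero) _).hasDerivAt
  have h3 := h1.comp_hasFDerivAt z (hasFDerivAt_lg hz)
  have h4 := h2.comp_hasFDerivAt z (hasFDerivAt_ag hz)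
  have h5 := h3.mul h4
  have h6 : HasFDerivAt (pol η u) _ z := h5
  rw [h6.fderiv]
  simp only [add_apply, smul_apply,
    ContinuousLinearMap.comp_apply, dlg_apply, Complex.reCLM_apply, Complex.imCLM_apply,
    smul_eq_mul, Function.comp_apply]
  ring

theorem inv_re (z : ℝ × ℝ) : (cpt (1, 0) * (cpt z)⁻¹).re = z.1 / (z.1 ^ 2 + z.2 ^ 2) := by
  have h : cpt (1, 0) = 1 := Complex.ext rfl rfl
  rw [h, one_mul, Complex.inv_re, Complex.normSq_apply, cpt_re, cpt_im]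
  ring_nf

theorem inv_im (z : ℝ × ℝ) : (cpt (1, 0) * (cpt z)⁻¹).im = -z.2 / (z.1 ^ 2 + z.2 ^ 2) := by
  have h : cpt (1, 0) = 1 := Complex.ext rfl rfl
  rw [h, one_mul, Complex.inv_im, Complex.normSq_apply, cpt_re, cpt_im]
  ring_nf

theorem Iinv_re (z : ℝ × ℝ) : (cpt (0, 1) * (cpt z)⁻¹).re = z.2 / (z.1 ^ 2 + z.2 ^ 2) := by
  have h : cpt (0, 1) = Complex.I := Complex.ext rfl rfl
  rw [h, Complex.mul_re, Complex.inv_im, Complex.inv_re, Complex.normSq_apply, cpt_re, cpt_im,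
    Complex.I_re, Complex.I_im]
  ring_nf

theorem Iinv_im (z : ℝ × ℝ) : (cpt (0, 1) * (cpt z)⁻¹).im = z.1 / (z.1 ^ 2 + z.2 ^ 2) := by
  have h : cpt (0, 1) = Complex.I := Complex.ext rfl rfl
  rw [h, Complex.mul_im, Complex.inv_im, Complex.inv_re, Complex.normSq_apply, cpt_re, cpt_im,
    Complex.I_re, Complex.I_im]
  ring_nf

theorem fderiv_pol_off (hηc : HasCompactSupport η) (hη0 : (0 : ℝ) ∉ tsupport η)
    (huc : HasCompactSupport u) {z : ℝ × ℝ} (hz : z ∉ pset η u) :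
    fderiv ℝ (pol η u) z = 0 := by
  have h1 : pol η u =ᶠ[𝓝 z] fun _ => 0 := by
    filter_upwards [(isCompact_pset hηc huc).isClosed.isOpen_compl.mem_nhds hz] with w hw
    exact pol_eq_zero hη0 hw
  rw [h1.fderiv_eq]
  simp

theorem fderiv_pol_off' (hηc : HasCompactSupport η) (huc : HasCompactSupport u) {z : ℝ × ℝ}
    (h0 : z ≠ 0) (hz : z ∉ pset η u) : fderiv ℝ (pol η u) z = 0 := by
  have h1 : pol η u =ᶠ[𝓝 z] fun _ => 0 := by
    filter_upwards [(isCompact_pset hηc huc).isClosed.isOpen_compl.mem_nhds hz,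
      isOpen_compl_singleton.mem_nhds h0] with w hw hw0
    exact pol_eq_zero' hw0 hw
  rw [h1.fderiv_eq]
  simp

theorem deriv_eq_zero_of_notMem {f : ℝ → ℝ} {x : ℝ} (hx : x ∉ tsupport f) : deriv f x = 0 := by
  have h1 : f =ᶠ[𝓝 x] fun _ => 0 := by
    filter_upwards [(isClosed_tsupport f).isOpen_compl.mem_nhds hx] with w hw
    exact image_eq_zero_of_notMem_tsupport hw
  rw [h1.deriv_eq]
  simp

/-- the first partial derivative -/
theorem fderiv_pol_fst (hη : ContDiff ℝ 1 η) (hu : ContDiff ℝ 1 u) (hηc : HasCompactSupport η)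
    (hη0 : (0 : ℝ) ∉ tsupport η) (hu0 : tsupport u ⊆ Ioo (-π) π) (z : ℝ × ℝ) :
    fderiv ℝ (pol η u) z (1, 0) = (deriv η (lg z) * u (ag z) * z.1 -
      η (lg z) * deriv u (ag z) * z.2) / (z.1 ^ 2 + z.2 ^ 2) := by
  by_cases hz : z ∈ pset η u
  · rw [fderiv_pol_aux hη hu (mem_pset hu0 hz).2.2, inv_re, inv_im]
    ring
  · rw [fderiv_pol_off hηc hη0 (hasCompactSupport_of_Ioo hu0) hz]
    rcases not_mem_pset hη0 hz with h | h
    · rw [deriv_eq_zero_of_notMem h, image_eq_zero_of_notMem_tsupport h]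
      simp
    · rw [deriv_eq_zero_of_notMem h, image_eq_zero_of_notMem_tsupport h]
      simp

/-- the second partial derivative -/
theorem fderiv_pol_snd (hη : ContDiff ℝ 1 η) (hu : ContDiff ℝ 1 u) (hηc : HasCompactSupport η)
    (hη0 : (0 : ℝ) ∉ tsupport η) (hu0 : tsupport u ⊆ Ioo (-π) π) (z : ℝ × ℝ) :
    fderiv ℝ (pol η u) z (0, 1) = (deriv η (lg z) * u (ag z) * z.2 +
      η (lg z) * deriv u (ag z) * z.1) / (z.1 ^ 2 + z.2 ^ 2) := by
  by_cases hz : z ∈ pset η u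
  · rw [fderiv_pol_aux hη hu (mem_pset hu0 hz).2.2, Iinv_re, Iinv_im]
    ring
  · rw [fderiv_pol_off hηc hη0 (hasCompactSupport_of_Ioo hu0) hz]
    rcases not_mem_pset hη0 hz with h | h
    · rw [deriv_eq_zero_of_notMem h, image_eq_zero_of_notMem_tsupport h]
      simp
    · rw [deriv_eq_zero_of_notMem h, image_eq_zero_of_notMem_tsupport h]
      simp

theorem fderiv_pol_fst' (hη : ContDiff ℝ 1 η) (hu : ContDiff ℝ 1 u) (hηc : HasCompactSupport η)
    (hu0 : tsupport u ⊆ Ioo (-π) π) {z : ℝ × ℝ} (h0 : z ≠ 0) :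
    fderiv ℝ (pol η u) z (1, 0) = (deriv η (lg z) * u (ag z) * z.1 -
      η (lg z) * deriv u (ag z) * z.2) / (z.1 ^ 2 + z.2 ^ 2) := by
  by_cases hz : z ∈ pset η u
  · rw [fderiv_pol_aux hη hu (mem_pset hu0 hz).2.2, inv_re, inv_im]
    ring
  · rw [fderiv_pol_off' hηc (hasCompactSupport_of_Ioo hu0) h0 hz]
    rcases not_mem_pset' h0 hz with h | h
    · rw [deriv_eq_zero_of_notMem h, image_eq_zero_of_notMem_tsupport h]
      simp
    · rw [deriv_eq_zero_of_notMem h, image_eq_zero_of_notMem_tsupport h]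
      simp

theorem fderiv_pol_snd' (hη : ContDiff ℝ 1 η) (hu : ContDiff ℝ 1 u) (hηc : HasCompactSupport η)
    (hu0 : tsupport u ⊆ Ioo (-π) π) {z : ℝ × ℝ} (h0 : z ≠ 0) :
    fderiv ℝ (pol η u) z (0, 1) = (deriv η (lg z) * u (ag z) * z.2 +
      η (lg z) * deriv u (ag z) * z.1) / (z.1 ^ 2 + z.2 ^ 2) := by
  by_cases hz : z ∈ pset η u
  · rw [fderiv_pol_aux hη hu (mem_pset hu0 hz).2.2, Iinv_re, Iinv_im]
    ring
  · rw [fderiv_pol_off' hηc (hasCompactSupport_of_Ioo hu0) h0 hz]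
    rcases not_mem_pset' h0 hz with h | h
    · rw [deriv_eq_zero_of_notMem h, image_eq_zero_of_notMem_tsupport h]
      simp
    · rw [deriv_eq_zero_of_notMem h, image_eq_zero_of_notMem_tsupport h]
      simp

/-! ### integrals -/

/-- the linear part of `(τ, θ) ↦ (exp τ, θ)` -/
def dex (a : ℝ) : ℝ × ℝ →L[ℝ] ℝ × ℝ :=
  (a • ContinuousLinearMap.fst ℝ ℝ ℝ).prod (ContinuousLinearMap.snd ℝ ℝ ℝ)

theorem det_dex (a : ℝ) : (dex a).det = a := by
  have h1 : ((dex a : ℝ × ℝ →L[ℝ] ℝ × ℝ) : ℝ × ℝ →ₗ[ℝ] ℝ × ℝ) =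
      (a • (LinearMap.id : ℝ →ₗ[ℝ] ℝ)).prodMap LinearMap.id := by
    ext <;> simp [dex]
  rw [ContinuousLinearMap.det, h1, LinearMap.det_prodMap, LinearMap.det_smul, LinearMap.det_id,
    Module.finrank_self]
  simp

/-- **change of variables** -/
theorem integral_lg_ag (F : ℝ × ℝ → ℝ) :
    ∫ z : ℝ × ℝ, (z.1 ^ 2 + z.2 ^ 2)⁻¹ * F (lg z, ag z) =
      ∫ p in (univ : Set ℝ) ×ˢ Ioo (-π) π, F p := by
  rw [← integral_comp_polarCoord_symm]
  have h1 : ∫ p in polarCoord.target, p.1 • ((((polarCoord.symm p).1) ^ 2 +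
      ((polarCoord.symm p).2) ^ 2)⁻¹ * F (lg (polarCoord.symm p), ag (polarCoord.symm p))) =
      ∫ p in polarCoord.target, p.1⁻¹ * F (Real.log p.1, p.2) := by
    refine setIntegral_congr_fun polarCoord.open_target.measurableSet ?_
    rintro ⟨r, θ⟩ ⟨hr, hθ⟩
    have hr' : 0 < r := hr
    have h2 : polarCoord.symm (r, θ) = ept (Real.log r, θ) := by
      rw [ept, Real.exp_log hr']
      rfl
    have h3 : ag (ept (Real.log r, θ)) = θ := ag_ept ⟨hθ.1, hθ.2.le⟩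
    have h4 : lg (ept (Real.log r, θ)) = Real.log r := lg_ept _
    have h5 : (ept (Real.log r, θ)).1 ^ 2 + (ept (Real.log r, θ)).2 ^ 2 = r ^ 2 := by
      rw [ept_normSq, Real.exp_log hr']
    simp only [h2]
    rw [h5, h4, h3, smul_eq_mul, ← mul_assoc]
    congr 1
    field_simp
  rw [h1]
  have h3 : polarCoord.target = (fun p : ℝ × ℝ => (Real.exp p.1, p.2)) ''
      ((univ : Set ℝ) ×ˢ Ioo (-π) π) := by
    ext ⟨r, θ⟩
    constructor
    · rintro ⟨hr, hθ⟩
      exact ⟨(Real.log r, θ), ⟨mem_univ _, hθ⟩, Prod.ext (Real.exp_log hr) rfl⟩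
    · rintro ⟨p, hp, h⟩
      have h4 := congrArg Prod.fst h
      have h5 := congrArg Prod.snd h
      refine ⟨?_, ?_⟩
      · change (0 : ℝ) < r
        have : Real.exp p.1 = r := h4
        rw [← this]
        exact Real.exp_pos _
      · have : p.2 = θ := h5
        rw [← this]
        exact hp.2
  rw [h3, integral_image_eq_integral_abs_det_fderiv_smul volume
    (MeasurableSet.univ.prod measurableSet_Ioo)
    (f' := fun p => dex (Real.exp p.1))]
  · refine setIntegral_congr_fun (MeasurableSet.univ.prod measurableSet_Ioo) ?_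
    intro p _
    simp only
    rw [det_dex, abs_of_pos (Real.exp_pos _), Real.log_exp, smul_eq_mul, ← mul_assoc,
      mul_inv_cancel₀ (Real.exp_pos _).ne', one_mul]
  · intro p _
    have h6 : HasFDerivAt (fun p : ℝ × ℝ => Real.exp p.1)
        (Real.exp p.1 • ContinuousLinearMap.fst ℝ ℝ ℝ) p :=
      (hasFDerivAt_fst).exp
    exact (h6.prodMk hasFDerivAt_snd).hasFDerivWithinAt
  · intro p _ q _ h
    have h7 := congrArg Prod.fst h
    have h8 := congrArg Prod.snd h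
    exact Prod.ext (Real.exp_injective h7) h8

/-- change of variables for products -/
theorem integral_lg_ag_mul (A B : ℝ → ℝ) :
    ∫ z : ℝ × ℝ, (z.1 ^ 2 + z.2 ^ 2)⁻¹ * (A (lg z) * B (ag z)) =
      (∫ τ, A τ) * ∫ θ in Ioo (-π) π, B θ := by
  have h := integral_lg_ag (fun p => A p.1 * B p.2)
  simp only at h
  rw [h]
  have h1 := setIntegral_prod_mul (μ := volume) (ν := volume) A B (univ : Set ℝ) (Ioo (-π) π)
  rw [Measure.restrict_univ] at h1
  exact h1

/-- where `pol η u` lives -/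
theorem mem_tsupport_pol (hηc : HasCompactSupport η) (hη0 : (0 : ℝ) ∉ tsupport η)
    (hu0 : tsupport u ⊆ Ioo (-π) π) {z : ℝ × ℝ} (hz : z ∈ tsupport (pol η u)) :
    lg z ∈ tsupport η ∧ ag z ∈ tsupport u :=
  have h := mem_pset hu0 (tsupport_pol hηc hη0 (hasCompactSupport_of_Ioo hu0) hz)
  ⟨h.1, h.2.1⟩

theorem pol_sum {ι : Type} (s : Finset ι) (η : ℝ → ℝ) (v : ι → ℝ → ℝ) (z : ℝ × ℝ) :
    pol η (fun θ => ∑ i ∈ s, v i θ) z = ∑ i ∈ s, pol η (v i) z := by
  simp only [pol, Finset.mul_sum]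

/-- **the Dirichlet energy of `pol η u`** -/
theorem Dir_pol (hη : ContDiff ℝ 1 η) (hu : ContDiff ℝ 1 u) (hηc : HasCompactSupport η)
    (hu0 : tsupport u ⊆ Ioo (-π) π) :
    Dir (pol η u) = (∫ τ, deriv η τ ^ 2) * (∫ θ in Ioo (-π) π, u θ ^ 2) +
      (∫ τ, η τ ^ 2) * ∫ θ in Ioo (-π) π, deriv u θ ^ 2 := by
  have huc := hasCompactSupport_of_Ioo hu0
  have hη' : Continuous (deriv η) := hη.continuous_deriv le_rfl
  have hu' : Continuous (deriv u) := hu.continuous_deriv le_rfl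
  have h1 : Dir (pol η u) = ∫ z : ℝ × ℝ, (z.1 ^ 2 + z.2 ^ 2)⁻¹ *
      (fun p : ℝ × ℝ => deriv η p.1 ^ 2 * u p.2 ^ 2 + η p.1 ^ 2 * deriv u p.2 ^ 2)
        (lg z, ag z) := by
    rw [Dir]
    have hae : ∀ᵐ z : ℝ × ℝ, z ≠ 0 := by
      have := (measure_singleton (μ := (volume : Measure (ℝ × ℝ))) (0 : ℝ × ℝ))
      exact compl_mem_ae_iff.2 this
    refine integral_congr_ae ?_
    filter_upwards [hae] with z h0
    rw [fderiv_pol_fst' hη hu hηc hu0 h0, fderiv_pol_snd' hη hu hηc hu0 h0]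
    have := (normSq_pos h0).ne'
    field_simp
    ring
  have hc1 : HasCompactSupport fun p : ℝ × ℝ => deriv η p.1 ^ 2 * u p.2 ^ 2 := by
    refine HasCompactSupport.intro (hηc.isCompact.prod huc.isCompact) ?_
    rintro p hp
    by_cases h : p.1 ∈ tsupport η
    · have h2 : p.2 ∉ tsupport u := fun h2 => hp ⟨h, h2⟩
      rw [image_eq_zero_of_notMem_tsupport h2]
      simp
    · rw [deriv_eq_zero_of_notMem h]
      simp
  have hc2 : HasCompactSupport fun p : ℝ × ℝ => η p.1 ^ 2 * deriv u p.2 ^ 2 := by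
    refine HasCompactSupport.intro (hηc.isCompact.prod huc.isCompact) ?_
    rintro p hp
    by_cases h : p.1 ∈ tsupport η
    · have h2 : p.2 ∉ tsupport u := fun h2 => hp ⟨h, h2⟩
      rw [deriv_eq_zero_of_notMem h2]
      simp
    · rw [image_eq_zero_of_notMem_tsupport h]
      simp
  have hi1 : Integrable fun p : ℝ × ℝ => deriv η p.1 ^ 2 * u p.2 ^ 2 :=
    Continuous.integrable_of_hasCompactSupport (by have := hu.continuous; fun_prop) hc1
  have hi2 : Integrable fun p : ℝ × ℝ => η p.1 ^ 2 * deriv u p.2 ^ 2 :=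
    Continuous.integrable_of_hasCompactSupport (by have := hη.continuous; fun_prop) hc2
  refine h1.trans ((integral_lg_ag fun p : ℝ × ℝ =>
    deriv η p.1 ^ 2 * u p.2 ^ 2 + η p.1 ^ 2 * deriv u p.2 ^ 2).trans ?_)
  refine (integral_add hi1.integrableOn hi2.integrableOn).trans ?_
  have h2 := setIntegral_prod_mul (μ := volume) (ν := volume) (fun τ => deriv η τ ^ 2)
    (fun θ => u θ ^ 2) (univ : Set ℝ) (Ioo (-π) π)
  have h3 := setIntegral_prod_mul (μ := volume) (ν := volume) (fun τ => η τ ^ 2)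
    (fun θ => deriv u θ ^ 2) (univ : Set ℝ) (Ioo (-π) π)
  rw [Measure.restrict_univ] at h2 h3
  rw [← h2, ← h3]
  rfl

end

end Vale.Agent.P159.T1.D.H414
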