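import Vale.Agent.P159.T1.D.H414.PolU

/-!
P159 T1, D.LOW: the radial profile.
-/

open MeasureTheory Set Filter Topology
open scoped Real

namespace Vale.Agent.P159.T1.D.H414

noncomputable section

theorem hasCompactSupport_deriv_smooth : HasCompactSupport (deriv Real.smoothTransition) := by
  refine HasCompactSupport.intro (isCompact_Icc (a := (0 : ℝ)) (b := 1)) ?_
  intro x hx
  by_cases h : 0 ≤ x
  · have h1 : 1 < x := by
      by_contra hcon
      push Not at hcon
      exact hx ⟨h, hcon⟩
    have h2 : Real.smoothTransition =ᶠ[𝓝 x] fun _ => 1 := by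
      filter_upwards [Ioi_mem_nhds h1] with y hy
      exact Real.smoothTransition.one_of_one_le (le_of_lt hy)
    rw [h2.deriv_eq]
    simp
  · push Not at h
    have h2 : Real.smoothTransition =ᶠ[𝓝 x] fun _ => 0 := by
      filter_upwards [Iio_mem_nhds h] with y hy
      exact Real.smoothTransition.zero_of_nonpos (le_of_lt hy)
    rw [h2.deriv_eq]
    simp

theorem exists_smooth_bound : ∃ C : ℝ, 0 < C ∧ ∀ x, |deriv Real.smoothTransition x| ≤ C := by
  have h1 : Continuous (deriv Real.smoothTransition) :=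
    (Real.smoothTransition.contDiff (n := 1)).continuous_deriv le_rfl
  obtain ⟨C, hC⟩ := h1.bounded_above_of_compact_support hasCompactSupport_deriv_smooth
  exact ⟨|C| + 1, by positivity, fun x => ((hC x).trans (le_abs_self C)).trans (by linarith)⟩

/-- the radial profile -/
def rad (l p τ : ℝ) : ℝ :=
  Real.smoothTransition ((τ - l) / l) * Real.smoothTransition (((p - 1) * l - τ) / l)

variable {l p : ℝ}

theorem rad_contDiff {n : ℕ∞} (l p : ℝ) : ContDiff ℝ n (rad l p) := by
  unfold rad
  exact (Real.smoothTransition.contDiff.comp (by fun_prop)).mul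
    (Real.smoothTransition.contDiff.comp (by fun_prop))

theorem rad_nonneg (τ : ℝ) : 0 ≤ rad l p τ :=
  mul_nonneg (Real.smoothTransition.nonneg _) (Real.smoothTransition.nonneg _)

theorem rad_le_one (τ : ℝ) : rad l p τ ≤ 1 :=
  mul_le_one₀ (Real.smoothTransition.le_one _) (Real.smoothTransition.nonneg _)
    (Real.smoothTransition.le_one _)

theorem rad_left (hl : 0 < l) {τ : ℝ} (hτ : τ ≤ l) : rad l p τ = 0 := by
  rw [rad, Real.smoothTransition.zero_of_nonpos, zero_mul]
  exact div_nonpos_of_nonpos_of_nonneg (by linarith) hl.le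

theorem rad_right (hl : 0 < l) {τ : ℝ} (hτ : (p - 1) * l ≤ τ) : rad l p τ = 0 := by
  rw [rad, mul_comm, Real.smoothTransition.zero_of_nonpos, zero_mul]
  exact div_nonpos_of_nonpos_of_nonneg (by linarith) hl.le

theorem rad_one (hl : 0 < l) {τ : ℝ} (h1 : 2 * l ≤ τ) (h2 : τ ≤ (p - 2) * l) :
    rad l p τ = 1 := by
  rw [rad, Real.smoothTransition.one_of_one_le, Real.smoothTransition.one_of_one_le, mul_one]
  · rw [le_div_iff₀ hl]; linarith
  · rw [le_div_iff₀ hl]; linarith

theorem rad_tsupport (hl : 0 < l) : tsupport (rad l p) ⊆ Icc l ((p - 1) * l) := by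
  refine closure_minimal ?_ isClosed_Icc
  intro τ hτ
  constructor
  · by_contra hcon
    push Not at hcon
    exact hτ (rad_left hl hcon.le)
  · by_contra hcon
    push Not at hcon
    exact hτ (rad_right hl hcon.le)

theorem rad_deriv_le (hl : 0 < l) {C : ℝ} (hC0 : 0 < C)
    (hC : ∀ x, |deriv Real.smoothTransition x| ≤ C) (τ : ℝ) :
    |deriv (rad l p) τ| ≤ 2 * C / l := by
  have hd : ∀ x, HasDerivAt Real.smoothTransition (deriv Real.smoothTransition x) x := fun x =>
    ((Real.smoothTransition.contDiff (n := 1)).differentiable one_ne_zero x).hasDerivAt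
  have h1 : HasDerivAt (fun τ : ℝ => (τ - l) / l) (1 / l) τ :=
    ((hasDerivAt_id τ).sub_const l).div_const l
  have h2 : HasDerivAt (fun τ : ℝ => ((p - 1) * l - τ) / l) (-1 / l) τ :=
    ((hasDerivAt_id τ).const_sub ((p - 1) * l)).div_const l
  have h3 := ((hd _).comp τ h1).mul ((hd _).comp τ h2)
  have h4 : HasDerivAt (rad l p) _ τ := h3
  rw [h4.deriv]
  have a1 := hC ((τ - l) / l)
  have a2 := hC (((p - 1) * l - τ) / l)
  have b1 := Real.smoothTransition.nonneg ((τ - l) / l)
  have b2 := Real.smoothTransition.le_one ((τ - l) / l)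
  have b3 := Real.smoothTransition.nonneg (((p - 1) * l - τ) / l)
  have b4 := Real.smoothTransition.le_one (((p - 1) * l - τ) / l)
  have h5 : |deriv Real.smoothTransition ((τ - l) / l) * (1 / l) *
      Real.smoothTransition (((p - 1) * l - τ) / l)| ≤ C / l := by
    rw [abs_mul, abs_mul, abs_of_nonneg b3, abs_of_pos (by positivity : 0 < 1 / l)]
    calc _ ≤ C * (1 / l) * 1 := by gcongr
      _ = C / l := by ring
  have h6 : |Real.smoothTransition ((τ - l) / l) *
      (deriv Real.smoothTransition (((p - 1) * l - τ) / l) * (-1 / l))| ≤ C / l := by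
    rw [abs_mul, abs_mul, abs_of_nonneg b1]
    have : |-1 / l| = 1 / l := by rw [abs_div, abs_neg, abs_one, abs_of_pos hl]
    rw [this]
    calc _ ≤ 1 * (C * (1 / l)) := by gcongr
      _ = C / l := by ring
  calc _ ≤ _ := abs_add_le _ _
    _ ≤ C / l + C / l := add_le_add h5 h6
    _ = 2 * C / l := by ring

theorem rad_deriv_zero (hl : 0 < l) {τ : ℝ} (h1 : τ ∉ Icc l (2 * l))
    (h2 : τ ∉ Icc ((p - 2) * l) ((p - 1) * l)) : deriv (rad l p) τ = 0 := by
  by_cases ha : τ < l
  · have h3 : rad l p =ᶠ[𝓝 τ] fun _ => 0 := by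
      filter_upwards [Iio_mem_nhds ha] with y hy
      exact rad_left hl (le_of_lt hy)
    rw [h3.deriv_eq]
    simp
  · push Not at ha
    by_cases hb : (p - 1) * l < τ
    · have h3 : rad l p =ᶠ[𝓝 τ] fun _ => 0 := by
        filter_upwards [Ioi_mem_nhds hb] with y hy
        exact rad_right hl (le_of_lt hy)
      rw [h3.deriv_eq]
      simp
    · push Not at hb
      have hc : 2 * l < τ := by
        by_contra hcon
        push Not at hcon
        exact h1 ⟨ha, hcon⟩
      have hd : τ < (p - 2) * l := by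
        by_contra hcon
        push Not at hcon
        exact h2 ⟨hcon, hb⟩
      have h3 : rad l p =ᶠ[𝓝 τ] fun _ => 1 := by
        filter_upwards [Ioi_mem_nhds hc, Iio_mem_nhds hd] with y hy hy'
        exact rad_one hl (le_of_lt hy) (le_of_lt hy')
      rw [h3.deriv_eq]
      simp

/-- **the radial profile** -/
theorem exists_eta : ∃ C : ℝ, 0 < C ∧ ∀ l p : ℝ, 0 < l → 4 ≤ p → ∃ η Γ : ℝ → ℝ,
    ContDiff ℝ ((⊤ : ℕ∞) : WithTop ℕ∞) η ∧ ContDiff ℝ ((⊤ : ℕ∞) : WithTop ℕ∞) Γ ∧
    (∀ τ, HasDerivAt Γ (η τ) τ) ∧ tsupport η ⊆ Icc l ((p - 1) * l) ∧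
    (∀ τ, 2 * l ≤ τ → τ ≤ (p - 2) * l → η τ = 1) ∧ (∀ τ, 0 ≤ η τ ∧ η τ ≤ 1) ∧
    (∀ τ, |deriv η τ| ≤ C / l) ∧ (∫ τ, deriv η τ ^ 2 ≤ C / l) ∧ ((p - 4) * l ≤ ∫ τ, η τ ^ 2) ∧
    (∫ τ, η τ ^ 2 ≤ (p - 2) * l) ∧ Monotone Γ ∧ Monotone (fun τ => τ - Γ τ) ∧
    (∀ τ, τ ≤ l → Γ τ = 0) ∧ ∀ τ, (p - 1) * l ≤ τ → Γ τ = Γ ((p - 1) * l) := by
  obtain ⟨C, hC0, hC⟩ := exists_smooth_bound
  refine ⟨2 * C + 8 * C ^ 2, by positivity, fun l p hl hp => ?_⟩
  have hcont : Continuous (rad l p) := (rad_contDiff (n := 0) l p).continuous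
  have hint : ∀ a b, IntervalIntegrable (rad l p) volume a b := fun a b =>
    hcont.intervalIntegrable a b
  let Γ : ℝ → ℝ := fun τ => ∫ s in l..τ, rad l p s
  have hΓ : ∀ τ, HasDerivAt Γ (rad l p τ) τ := fun τ =>
    intervalIntegral.integral_hasDerivAt_right (hint _ _)
      (hcont.stronglyMeasurableAtFilter _ _) hcont.continuousAt
  have hΓd : deriv Γ = rad l p := funext fun τ => (hΓ τ).deriv
  have hdiv : 2 * C / l ≤ (2 * C + 8 * C ^ 2) / l := by
    gcongr
    nlinarith [sq_nonneg C]
  refine ⟨rad l p, Γ, rad_contDiff l p, ?_, hΓ, rad_tsupport hl, fun τ => rad_one hl,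
    fun τ => ⟨rad_nonneg τ, rad_le_one τ⟩, fun τ => (rad_deriv_le hl hC0 hC τ).trans hdiv,
    ?_, ?_, ?_, ?_, ?_, ?_, ?_⟩
  · rw [contDiff_infty_iff_deriv]
    refine ⟨fun τ => (hΓ τ).differentiableAt, ?_⟩
    rw [hΓd]
    exact rad_contDiff l p
  · have hm : MeasurableSet (Icc l (2 * l) ∪ Icc ((p - 2) * l) ((p - 1) * l)) :=
      measurableSet_Icc.union measurableSet_Icc
    have hf : volume (Icc l (2 * l) ∪ Icc ((p - 2) * l) ((p - 1) * l)) ≠ ⊤ :=
      ((measure_union_le _ _).trans_lt (ENNReal.add_lt_top.2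
        ⟨isCompact_Icc.measure_lt_top, isCompact_Icc.measure_lt_top⟩)).ne
    calc ∫ τ, deriv (rad l p) τ ^ 2 ≤
          ∫ τ, (Icc l (2 * l) ∪ Icc ((p - 2) * l) ((p - 1) * l)).indicator
            (fun _ => (2 * C / l) ^ 2) τ := by
          refine integral_mono_of_nonneg (Eventually.of_forall fun θ => sq_nonneg _) ?_
            (Eventually.of_forall fun τ => ?_)
          · rw [integrable_indicator_iff hm]
            exact integrableOn_const hf
          · by_cases h : τ ∈ Icc l (2 * l) ∪ Icc ((p - 2) * l) ((p - 1) * l)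
            · simp only [indicator_of_mem h]
              rw [← sq_abs]
              exact pow_le_pow_left₀ (abs_nonneg _) (rad_deriv_le hl hC0 hC τ) 2
            · simp only [indicator_of_notMem h]
              rw [rad_deriv_zero hl (fun h' => h (Or.inl h')) (fun h' => h (Or.inr h'))]
              simp
      _ = volume.real (Icc l (2 * l) ∪ Icc ((p - 2) * l) ((p - 1) * l)) * (2 * C / l) ^ 2 := by
          rw [integral_indicator hm, setIntegral_const, smul_eq_mul]
      _ ≤ (2 * l) * (2 * C / l) ^ 2 := by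
          refine mul_le_mul_of_nonneg_right ?_ (sq_nonneg _)
          refine (measureReal_union_le _ _).trans ?_
          rw [Real.volume_real_Icc_of_le (by linarith), Real.volume_real_Icc_of_le (by nlinarith)]
          linarith
      _ = 8 * C ^ 2 / l := by field_simp; ring
      _ ≤ (2 * C + 8 * C ^ 2) / l := by
          gcongr
          nlinarith
  · have h1 : IntegrableOn (fun τ => rad l p τ ^ 2) univ := by
      rw [integrableOn_univ]
      refine (hcont.pow 2).integrable_of_hasCompactSupport ?_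
      refine HasCompactSupport.intro (isCompact_Icc (a := l) (b := (p - 1) * l)) fun τ hτ => ?_
      have h2 : τ ∉ tsupport (rad l p) := fun h => hτ (rad_tsupport hl h)
      have h3 : rad l p τ = 0 := image_eq_zero_of_notMem_tsupport h2
      change rad l p τ ^ 2 = 0
      rw [h3]
      simp
    calc (p - 4) * l = ∫ τ in Icc (2 * l) ((p - 2) * l), (1 : ℝ) := by
          rw [setIntegral_const, Real.volume_real_Icc_of_le (by nlinarith), smul_eq_mul]
          ring
      _ = ∫ τ in Icc (2 * l) ((p - 2) * l), rad l p τ ^ 2 := by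
          refine setIntegral_congr_fun measurableSet_Icc fun τ hτ => ?_
          simp only [rad_one hl hτ.1 hτ.2]
          simp
      _ ≤ ∫ τ, rad l p τ ^ 2 := by
          rw [integrableOn_univ] at h1
          exact setIntegral_le_integral h1 (Eventually.of_forall fun τ => sq_nonneg _)
  · calc ∫ τ, rad l p τ ^ 2 ≤ ∫ τ, (Icc l ((p - 1) * l)).indicator (fun _ => (1 : ℝ)) τ := by
          refine integral_mono_of_nonneg (Eventually.of_forall fun θ => sq_nonneg _) ?_
            (Eventually.of_forall fun τ => ?_)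
          · rw [integrable_indicator_iff measurableSet_Icc]
            exact integrableOn_const isCompact_Icc.measure_lt_top.ne
          · by_cases h : τ ∈ Icc l ((p - 1) * l)
            · simp only [indicator_of_mem h]
              exact pow_le_one₀ (rad_nonneg τ) (rad_le_one τ)
            · simp only [indicator_of_notMem h]
              have : τ ∉ tsupport (rad l p) := fun h' => h (rad_tsupport hl h')
              rw [image_eq_zero_of_notMem_tsupport this]
              simp
      _ = (p - 2) * l := by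
          rw [integral_indicator measurableSet_Icc, setIntegral_const,
            Real.volume_real_Icc_of_le (by nlinarith), smul_eq_mul]
          ring
  · exact monotone_of_deriv_nonneg (fun τ => (hΓ τ).differentiableAt) fun τ => by
      rw [hΓd]
      exact rad_nonneg τ
  · have h1 : ∀ τ, HasDerivAt (fun τ => τ - Γ τ) (1 - rad l p τ) τ := fun τ =>
      (hasDerivAt_id τ).sub (hΓ τ)
    exact monotone_of_deriv_nonneg (fun τ => (h1 τ).differentiableAt) fun τ => by
      rw [(h1 τ).deriv]
      linarith [rad_le_one (l := l) (p := p) τ]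
  · intro τ hτ
    change ∫ s in l..τ, rad l p s = 0
    rw [intervalIntegral.integral_congr (g := fun _ => (0 : ℝ))]
    · simp
    · intro s hs
      refine rad_left hl ?_
      rcases mem_uIcc.1 hs with h | h
      · exact h.2.trans hτ
      · exact h.2
  · intro τ hτ
    have h : Γ τ - Γ ((p - 1) * l) = ∫ s in ((p - 1) * l)..τ, rad l p s :=
      intervalIntegral.integral_interval_sub_left (hint _ _) (hint _ _)
    rw [intervalIntegral.integral_congr (g := fun _ => (0 : ℝ))] at h
    · simp only [intervalIntegral.integral_zero] at h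
      linarith
    · intro s hs
      refine rad_right hl ?_
      rcases mem_uIcc.1 hs with h | h
      · exact h.1
      · exact hτ.trans h.1

end

end Vale.Agent.P159.T1.D.H414
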