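import Vale.Agent.P159.T1.D.H414.Pol

/-!
P159 T1, D.LOW: the angular profile (a smooth tent), its five pieces, and the radial profile.
-/

open MeasureTheory Set Filter Topology
open scoped Real

namespace Vale.Agent.P159.T1.D.H414

noncomputable section

/-! ### a smooth approximation of the indicator of `(0, 1)` -/

/-- smooth, `0` off `[e, 1 - e]`, `1` on `[2 e, 1 - 2 e]` -/
def bmp (e t : ℝ) : ℝ :=
  Real.smoothTransition ((t - e) / e) * Real.smoothTransition ((1 - e - t) / e)

theorem bmp_contDiff {n : ℕ∞} (e : ℝ) : ContDiff ℝ n (bmp e) := by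
  unfold bmp
  exact (Real.smoothTransition.contDiff.comp (by fun_prop)).mul
    (Real.smoothTransition.contDiff.comp (by fun_prop))

theorem bmp_nonneg (e t : ℝ) : 0 ≤ bmp e t :=
  mul_nonneg (Real.smoothTransition.nonneg _) (Real.smoothTransition.nonneg _)

theorem bmp_le_one (e t : ℝ) : bmp e t ≤ 1 :=
  mul_le_one₀ (Real.smoothTransition.le_one _) (Real.smoothTransition.nonneg _)
    (Real.smoothTransition.le_one _)

theorem bmp_zero_left {e t : ℝ} (he : 0 < e) (ht : t ≤ e) : bmp e t = 0 := by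
  rw [bmp, Real.smoothTransition.zero_of_nonpos, zero_mul]
  exact div_nonpos_of_nonpos_of_nonneg (by linarith) he.le

theorem bmp_zero_right {e t : ℝ} (he : 0 < e) (ht : 1 - e ≤ t) : bmp e t = 0 := by
  rw [bmp, mul_comm, Real.smoothTransition.zero_of_nonpos, zero_mul]
  exact div_nonpos_of_nonpos_of_nonneg (by linarith) he.le

theorem bmp_one {e t : ℝ} (he : 0 < e) (h1 : 2 * e ≤ t) (h2 : t ≤ 1 - 2 * e) : bmp e t = 1 := by
  rw [bmp, Real.smoothTransition.one_of_one_le, Real.smoothTransition.one_of_one_le, mul_one]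
  · rw [le_div_iff₀ he]; linarith
  · rw [le_div_iff₀ he]; linarith

/-- its primitive -/
def Bmp (e t : ℝ) : ℝ := ∫ s in (0)..t, bmp e s

theorem Bmp_hasDerivAt (e t : ℝ) : HasDerivAt (Bmp e) (bmp e t) t :=
  intervalIntegral.integral_hasDerivAt_right ((bmp_contDiff (n := 0) e).continuous.intervalIntegrable _ _)
    ((bmp_contDiff (n := 0) e).continuous.stronglyMeasurableAtFilter _ _)
    (bmp_contDiff (n := 0) e).continuous.continuousAt

theorem Bmp_deriv (e : ℝ) : deriv (Bmp e) = bmp e := funext fun t => (Bmp_hasDerivAt e t).deriv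

theorem Bmp_contDiff {n : ℕ∞} (e : ℝ) : ContDiff ℝ n (Bmp e) := by
  have h : ContDiff ℝ ((⊤ : ℕ∞) : WithTop ℕ∞) (Bmp e) := by
    rw [contDiff_infty_iff_deriv]
    refine ⟨fun t => (Bmp_hasDerivAt e t).differentiableAt, ?_⟩
    rw [Bmp_deriv]
    exact bmp_contDiff e
  exact h.of_le (by exact_mod_cast le_top)

theorem Bmp_mono (e : ℝ) : Monotone (Bmp e) :=
  monotone_of_deriv_nonneg (fun t => (Bmp_hasDerivAt e t).differentiableAt) fun t => by
    rw [Bmp_deriv]
    exact bmp_nonneg e t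

theorem Bmp_le {e t : ℝ} (he : 0 < e) (ht : t ≤ e) : Bmp e t = 0 := by
  rw [Bmp, intervalIntegral.integral_congr (g := fun _ => (0 : ℝ))]
  · simp
  · intro s hs
    refine bmp_zero_left he ?_
    rcases mem_uIcc.1 hs with h | h
    · exact h.2.trans ht
    · exact h.2.trans he.le

theorem Bmp_ge {e t : ℝ} (he : 0 < e) (ht : 1 - e ≤ t) : Bmp e t = Bmp e 1 := by
  have hc := (bmp_contDiff (n := 0) e).continuous
  have h : Bmp e t - Bmp e 1 = ∫ s in (1)..t, bmp e s :=
    intervalIntegral.integral_interval_sub_left (hc.intervalIntegrable _ _)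
      (hc.intervalIntegrable _ _)
  rw [intervalIntegral.integral_congr (g := fun _ => (0 : ℝ))] at h
  · simp only [intervalIntegral.integral_zero] at h
    linarith
  · intro s hs
    refine bmp_zero_right he ?_
    rcases mem_uIcc.1 hs with h | h
    · linarith [h.1]
    · exact ht.trans h.1

theorem Bmp_one_le (e : ℝ) : Bmp e 1 ≤ 1 := by
  have hc := (bmp_contDiff (n := 0) e).continuous
  calc Bmp e 1 ≤ ∫ _ in (0 : ℝ)..1, (1 : ℝ) :=
        intervalIntegral.integral_mono_on zero_le_one (hc.intervalIntegrable _ _)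
          (continuous_const.intervalIntegrable _ _) fun s _ => bmp_le_one e s
    _ = 1 := by simp

/-! ### the tent -/

/-- slopes of the tent: `h / d` up to `-π + d`, then `-h / (2π - d)` -/
def slp (d h θ : ℝ) : ℝ := if θ < -π + d then h / d else -(h / (2 * π - d))

/-- the smooth tent -/
def tent (d h e θ : ℝ) : ℝ :=
  h * (Bmp e ((θ + π) / d) - Bmp e ((θ + π - d) / (2 * π - d)))

variable {d h e : ℝ}

theorem tent_contDiff {n : ℕ∞} (d h e : ℝ) : ContDiff ℝ n (tent d h e) := by
  unfold tent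
  exact contDiff_const.mul (((Bmp_contDiff e).comp (by fun_prop)).sub
    ((Bmp_contDiff e).comp (by fun_prop)))

theorem tent_hasDerivAt (d h e θ : ℝ) : HasDerivAt (tent d h e)
    (h * (bmp e ((θ + π) / d) * (1 / d) - bmp e ((θ + π - d) / (2 * π - d)) * (1 / (2 * π - d)))) θ := by
  have h1 : HasDerivAt (fun θ : ℝ => (θ + π) / d) (1 / d) θ :=
    ((hasDerivAt_id θ).add_const π).div_const d
  have h2 : HasDerivAt (fun θ : ℝ => (θ + π - d) / (2 * π - d)) (1 / (2 * π - d)) θ :=
    (((hasDerivAt_id θ).add_const π).sub_const d).div_const _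
  exact (((Bmp_hasDerivAt e _).comp θ h1).sub ((Bmp_hasDerivAt e _).comp θ h2)).const_mul h

theorem tent_deriv (d h e θ : ℝ) : deriv (tent d h e) θ =
    h * (bmp e ((θ + π) / d) * (1 / d) - bmp e ((θ + π - d) / (2 * π - d)) * (1 / (2 * π - d))) :=
  (tent_hasDerivAt d h e θ).deriv

theorem tent_left (hd : 0 < d) (hd2 : d < 2 * π) (he : 0 < e) (he1 : e ≤ 1 / 4) {θ : ℝ}
    (hθ : θ ≤ -π + e * d) : tent d h e θ = 0 := by
  have h1 : (θ + π) / d ≤ e := by rw [div_le_iff₀ hd]; linarith
  have h2 : (θ + π - d) / (2 * π - d) ≤ e := by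
    rw [div_le_iff₀ (by linarith)]
    nlinarith
  rw [tent, Bmp_le he h1, Bmp_le he h2]
  ring

theorem tent_right (hd : 0 < d) (hd2 : d < 2 * π) (he : 0 < e) {θ : ℝ}
    (hθ : π - e * (2 * π - d) ≤ θ) (he1 : e ≤ 1 / 4) : tent d h e θ = 0 := by
  have h1 : 1 - e ≤ (θ + π) / d := by
    rw [le_div_iff₀ hd]
    nlinarith
  have h2 : 1 - e ≤ (θ + π - d) / (2 * π - d) := by
    rw [le_div_iff₀ (by linarith)]
    nlinarith
  rw [tent, Bmp_ge he h1, Bmp_ge he h2]
  ring

theorem tent_tsupport (hd : 0 < d) (hd2 : d < 2 * π) (he : 0 < e) (he1 : e ≤ 1 / 4) :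
    tsupport (tent d h e) ⊆ Ioo (-π) π := by
  have h1 : tsupport (tent d h e) ⊆ Icc (-π + e * d) (π - e * (2 * π - d)) := by
    refine closure_minimal ?_ isClosed_Icc
    intro θ hθ
    constructor
    · by_contra hcon
      push Not at hcon
      exact hθ (tent_left hd hd2 he he1 hcon.le)
    · by_contra hcon
      push Not at hcon
      exact hθ (tent_right hd hd2 he hcon.le he1)
  refine h1.trans fun θ hθ => ⟨?_, ?_⟩
  · have := mul_pos he hd
    linarith [hθ.1]
  · have := mul_pos he (by linarith : 0 < 2 * π - d)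
    linarith [hθ.2]

theorem Bmp_nonneg {e t : ℝ} (he : 0 < e) : 0 ≤ Bmp e t := by
  have h1 := Bmp_mono e (min_le_left t e)
  rwa [Bmp_le he (min_le_right t e)] at h1

theorem Bmp_le_one' {e t : ℝ} (he : 0 < e) : Bmp e t ≤ Bmp e 1 := by
  have h1 := Bmp_mono e (le_max_left t 1)
  rwa [Bmp_ge he ((by linarith : 1 - e ≤ 1).trans (le_max_right t 1))] at h1

theorem tent_nonneg (hd : 0 < d) (hd2 : d < 2 * π) (hh : 0 < h) (he : 0 < e) (θ : ℝ) :
    0 ≤ tent d h e θ := by
  refine mul_nonneg hh.le (sub_nonneg.2 ?_)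
  by_cases h1 : 1 - e ≤ (θ + π) / d
  · rw [Bmp_ge he h1]
    exact Bmp_le_one' he
  · push Not at h1
    rw [div_lt_iff₀ hd] at h1
    have h2 : (θ + π - d) / (2 * π - d) ≤ e := by
      rw [div_le_iff₀ (by linarith)]
      nlinarith [mul_pos he hd]
    rw [Bmp_le he h2]
    exact Bmp_nonneg he

theorem tent_le (hh : 0 < h) (he : 0 < e) (θ : ℝ) : tent d h e θ ≤ h := by
  have h1 : Bmp e ((θ + π) / d) ≤ 1 := (Bmp_le_one' he).trans (Bmp_one_le e)
  have h2 : 0 ≤ Bmp e ((θ + π - d) / (2 * π - d)) := Bmp_nonneg he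
  rw [tent]
  nlinarith

/-- the set of bad angles -/
def Wb (d e : ℝ) : Set ℝ := Icc (-π) (-π + 2 * e * d) ∪
  (Icc (-π + d - 2 * e * d) (-π + d + 2 * e * (2 * π - d)) ∪ Icc (π - 2 * e * (2 * π - d)) π)

theorem tent_good (hd : 0 < d) (hd2 : d < 2 * π) (he : 0 < e) {θ : ℝ}
    (hθ : θ ∈ Ioo (-π) π) (hW : θ ∉ Wb d e) : deriv (tent d h e) θ = slp d h θ := by
  have hdd : 0 < 2 * π - d := by linarith
  simp only [Wb, mem_union, mem_Icc, not_or, not_and, not_le] at hW
  obtain ⟨w1, w2, w3⟩ := hW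
  have a1 := w1 hθ.1.le
  have a3 : θ < π - 2 * e * (2 * π - d) := by
    by_contra hcon
    push Not at hcon
    exact absurd (w3 hcon) (not_lt.2 hθ.2.le)
  rw [tent_deriv, slp]
  split_ifs with hlt
  · have a2 : θ < -π + d - 2 * e * d := by
      by_contra hcon
      push Not at hcon
      have := w2 hcon
      nlinarith [mul_pos he hdd]
    rw [bmp_one he, bmp_zero_left he]
    · ring
    · rw [div_le_iff₀ hdd]
      nlinarith [mul_pos he hdd]
    · rw [le_div_iff₀ hd]; linarith
    · rw [div_le_iff₀ hd]; linarith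
  · push Not at hlt
    have a2 : -π + d + 2 * e * (2 * π - d) < θ := by
      refine w2 ?_
      nlinarith [mul_pos he hd]
    rw [bmp_zero_right (e := e) (t := (θ + π) / d) he, bmp_one he]
    · ring
    · rw [le_div_iff₀ hdd]; linarith
    · rw [div_le_iff₀ hdd]; linarith
    · rw [le_div_iff₀ hd]
      nlinarith [mul_pos he hd]

theorem tent_deriv_le (hd : 0 < d) (hd2 : d < 2 * π) (hh : 0 < h) (θ : ℝ) :
    |slp d h θ - deriv (tent d h e) θ| ≤ h / d + h / (2 * π - d) := by
  have hdd : 0 < 2 * π - d := by linarith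
  have p1 : 0 < h / d := div_pos hh hd
  have p2 : 0 < h / (2 * π - d) := div_pos hh hdd
  have b1 := bmp_nonneg e ((θ + π) / d)
  have b2 := bmp_le_one e ((θ + π) / d)
  have b3 := bmp_nonneg e ((θ + π - d) / (2 * π - d))
  have b4 := bmp_le_one e ((θ + π - d) / (2 * π - d))
  have h1 : deriv (tent d h e) θ = bmp e ((θ + π) / d) * (h / d) -
      bmp e ((θ + π - d) / (2 * π - d)) * (h / (2 * π - d)) := by
    rw [tent_deriv]; ring
  rw [h1, slp, abs_le]
  split_ifs
  · constructor <;> nlinarith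
  · constructor <;> nlinarith

theorem volume_Wb (hd : 0 < d) (hd2 : d < 2 * π) (he : 0 < e) :
    volume.real (Wb d e) ≤ 8 * π * e := by
  have hdd : 0 < 2 * π - d := by linarith
  have q1 := mul_pos he hd
  have q2 := mul_pos he hdd
  have h1 : volume.real (Icc (-π) (-π + 2 * e * d)) = 2 * e * d := by
    rw [Real.volume_real_Icc_of_le (by nlinarith)]; ring
  have h2 : volume.real (Icc (-π + d - 2 * e * d) (-π + d + 2 * e * (2 * π - d))) =
      2 * e * d + 2 * e * (2 * π - d) := by
    rw [Real.volume_real_Icc_of_le (by nlinarith)]; ring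
  have h3 : volume.real (Icc (π - 2 * e * (2 * π - d)) π) = 2 * e * (2 * π - d) := by
    rw [Real.volume_real_Icc_of_le (by nlinarith)]; ring
  have h4 := measureReal_union_le (μ := volume) (Icc (-π) (-π + 2 * e * d))
    (Icc (-π + d - 2 * e * d) (-π + d + 2 * e * (2 * π - d)) ∪ Icc (π - 2 * e * (2 * π - d)) π)
  have h5 := measureReal_union_le (μ := volume)
    (Icc (-π + d - 2 * e * d) (-π + d + 2 * e * (2 * π - d))) (Icc (π - 2 * e * (2 * π - d)) π)
  rw [Wb]
  nlinarith

theorem measurableSet_Wb : MeasurableSet (Wb d e) :=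
  measurableSet_Icc.union (measurableSet_Icc.union measurableSet_Icc)

theorem measurable_slp : Measurable (slp d h) :=
  Measurable.ite measurableSet_Iio measurable_const measurable_const

theorem tent_energy_diff (hd : 0 < d) (hd2 : d < 2 * π) (hh : 0 < h) (he : 0 < e) :
    ∫ θ in Ioo (-π) π, (slp d h θ - deriv (tent d h e) θ) ^ 2 ≤
      (h / d + h / (2 * π - d)) ^ 2 * (8 * π * e) := by
  have hK : 0 ≤ (h / d + h / (2 * π - d)) ^ 2 := sq_nonneg _
  have hWf : volume (Wb d e) ≠ ⊤ := by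
    refine ((measure_union_le _ _).trans_lt (ENNReal.add_lt_top.2 ⟨?_, ?_⟩)).ne
    · exact isCompact_Icc.measure_lt_top
    · exact ((measure_union_le _ _).trans_lt (ENNReal.add_lt_top.2
        ⟨isCompact_Icc.measure_lt_top, isCompact_Icc.measure_lt_top⟩))
  calc ∫ θ in Ioo (-π) π, (slp d h θ - deriv (tent d h e) θ) ^ 2
      ≤ ∫ θ in Ioo (-π) π, (Wb d e).indicator
          (fun _ => (h / d + h / (2 * π - d)) ^ 2) θ := by
        refine integral_mono_of_nonneg (Eventually.of_forall fun θ => sq_nonneg _) ?_ ?_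
        · refine Integrable.integrableOn ?_
          rw [integrable_indicator_iff measurableSet_Wb]
          exact integrableOn_const hWf
        · filter_upwards [ae_restrict_mem measurableSet_Ioo] with θ hθ
          by_cases hW : θ ∈ Wb d e
          · rw [indicator_of_mem hW, ← sq_abs]
            exact pow_le_pow_left₀ (abs_nonneg _) (tent_deriv_le hd hd2 hh θ) 2
          · rw [indicator_of_notMem hW, tent_good hd hd2 he hθ hW]
            simp
    _ ≤ ∫ θ, (Wb d e).indicator (fun _ => (h / d + h / (2 * π - d)) ^ 2) θ := by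
        refine setIntegral_le_integral ?_ ?_
        · rw [integrable_indicator_iff measurableSet_Wb]
          exact integrableOn_const hWf
        · exact Eventually.of_forall fun θ => indicator_nonneg (fun _ _ => hK) θ
    _ = volume.real (Wb d e) * (h / d + h / (2 * π - d)) ^ 2 := by
        rw [integral_indicator measurableSet_Wb, setIntegral_const, smul_eq_mul]
    _ ≤ _ := by
        rw [mul_comm]
        exact mul_le_mul_of_nonneg_left (volume_Wb hd hd2 he) hK

theorem slp_sq_integrable {s : Set ℝ} (hs2 : volume s ≠ ⊤) :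
    IntegrableOn (fun θ => slp d h θ ^ 2) s := by
  refine Integrable.mono' (g := fun _ => (|h / d| + |h / (2 * π - d)|) ^ 2)
    (integrableOn_const hs2) (measurable_slp.pow_const 2).aestronglyMeasurable
    (Eventually.of_forall fun θ => ?_)
  rw [Real.norm_eq_abs, abs_pow]
  refine pow_le_pow_left₀ (abs_nonneg _) ?_ 2
  rw [slp]
  split_ifs
  · linarith [abs_nonneg (h / (2 * π - d))]
  · rw [abs_neg]
    linarith [abs_nonneg (h / d)]

theorem slp_energy (hd : 0 < d) (hd2 : d < 2 * π) (h : ℝ) :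
    ∫ θ in Ioo (-π) π, slp d h θ ^ 2 = h ^ 2 / d + h ^ 2 / (2 * π - d) := by
  have hdd : 0 < 2 * π - d := by linarith
  have h1 : Ioo (-π) π = Ioo (-π) (-π + d) ∪ Ico (-π + d) π :=
    (Ioo_union_Ico_eq_Ioo (by linarith) (by linarith)).symm
  have h2 : Disjoint (Ioo (-π) (-π + d)) (Ico (-π + d) π) := by
    rw [Set.disjoint_left]
    intro θ h3 h4
    exact absurd h3.2 (not_lt.2 h4.1)
  have h3 : ∫ θ in Ioo (-π) (-π + d), slp d h θ ^ 2 = h ^ 2 / d := by
    rw [setIntegral_congr_fun (g := fun _ => (h / d) ^ 2) measurableSet_Ioo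
      (fun θ hθ => by simp only [slp, if_pos hθ.2]), setIntegral_const,
      Real.volume_real_Ioo_of_le (by linarith), smul_eq_mul]
    field_simp
    ring
  have h4 : ∫ θ in Ico (-π + d) π, slp d h θ ^ 2 = h ^ 2 / (2 * π - d) := by
    rw [setIntegral_congr_fun (g := fun _ => (h / (2 * π - d)) ^ 2) measurableSet_Ico
      (fun θ hθ => by simp only [slp, if_neg (not_lt.2 hθ.1), neg_sq]), setIntegral_const,
      Real.volume_real_Ico_of_le (by linarith), smul_eq_mul]
    have h5 : π - (-π + d) = 2 * π - d := by ring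
    rw [h5]
    field_simp
  rw [h1, setIntegral_union h2 measurableSet_Ico
    (slp_sq_integrable (by simp)) (slp_sq_integrable (by simp)), h3, h4]

theorem tent_energy_ge (hd : 0 < d) (hd2 : d < 2 * π) (hh : 0 < h) (he : 0 < e) :
    h ^ 2 / d + h ^ 2 / (2 * π - d) - (h / d + h / (2 * π - d)) ^ 2 * (8 * π * e) ≤
      ∫ θ in Ioo (-π) π, deriv (tent d h e) θ ^ 2 := by
  have hdd : 0 < 2 * π - d := by linarith
  have p1 : 0 < h / d := div_pos hh hd
  have p2 : 0 < h / (2 * π - d) := div_pos hh hdd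
  have hWf : volume (Wb d e) ≠ ⊤ := by
    refine ((measure_union_le _ _).trans_lt (ENNReal.add_lt_top.2 ⟨?_, ?_⟩)).ne
    · exact isCompact_Icc.measure_lt_top
    · exact ((measure_union_le _ _).trans_lt (ENNReal.add_lt_top.2
        ⟨isCompact_Icc.measure_lt_top, isCompact_Icc.measure_lt_top⟩))
  have hind : Integrable fun θ => (Wb d e).indicator
      (fun _ => (h / d + h / (2 * π - d)) ^ 2) θ := by
    rw [integrable_indicator_iff measurableSet_Wb]
    exact integrableOn_const hWf
  have hK : 0 ≤ (h / d + h / (2 * π - d)) ^ 2 := sq_nonneg _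
  have h1 : ∫ θ in Ioo (-π) π, (Wb d e).indicator
      (fun _ => (h / d + h / (2 * π - d)) ^ 2) θ ≤
      (h / d + h / (2 * π - d)) ^ 2 * (8 * π * e) := by
    calc ∫ θ in Ioo (-π) π, (Wb d e).indicator
          (fun _ => (h / d + h / (2 * π - d)) ^ 2) θ
        ≤ ∫ θ, (Wb d e).indicator (fun _ => (h / d + h / (2 * π - d)) ^ 2) θ :=
          setIntegral_le_integral hind
            (Eventually.of_forall fun θ => indicator_nonneg (fun _ _ => hK) θ)
      _ = volume.real (Wb d e) * (h / d + h / (2 * π - d)) ^ 2 := by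
          rw [integral_indicator measurableSet_Wb, setIntegral_const, smul_eq_mul]
      _ ≤ _ := by
          rw [mul_comm]
          exact mul_le_mul_of_nonneg_left (volume_Wb hd hd2 he) hK
  have hcd : Continuous (deriv (tent d h e)) :=
    (tent_contDiff (n := 1) d h e).continuous_deriv le_rfl
  have h2 : ∫ θ in Ioo (-π) π, (slp d h θ ^ 2 - (Wb d e).indicator
      (fun _ => (h / d + h / (2 * π - d)) ^ 2) θ) ≤
      ∫ θ in Ioo (-π) π, deriv (tent d h e) θ ^ 2 := by
    refine setIntegral_mono_on ((slp_sq_integrable (by simp)).sub hind.integrableOn) ?_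
      measurableSet_Ioo ?_
    · exact ((hcd.pow 2).integrableOn_Icc (a := -π) (b := π)).mono_set Ioo_subset_Icc_self
    · intro θ hθ
      by_cases hW : θ ∈ Wb d e
      · rw [indicator_of_mem hW]
        have h3 : slp d h θ ^ 2 ≤ (h / d + h / (2 * π - d)) ^ 2 := by
          rw [slp]
          split_ifs
          · exact pow_le_pow_left₀ p1.le (by linarith) 2
          · rw [neg_sq]
            exact pow_le_pow_left₀ p2.le (by linarith) 2
        linarith [sq_nonneg (deriv (tent d h e) θ)]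
      · rw [indicator_of_notMem hW, tent_good hd hd2 he hθ hW]
        simp
  rw [integral_sub (slp_sq_integrable (by simp)) hind.integrableOn, slp_energy hd hd2] at h2
  linarith

/-! ### the five pieces -/

/-- smooth step around `a` of width `π / 4` -/
def stp (a θ : ℝ) : ℝ := Real.smoothTransition ((θ - a + π / 8) / (π / 4))

theorem stp_contDiff {n : ℕ∞} (a : ℝ) : ContDiff ℝ n (stp a) := by
  unfold stp
  exact Real.smoothTransition.contDiff.comp (by fun_prop)

theorem stp_zero {a θ : ℝ} (hθ : θ ≤ a - π / 8) : stp a θ = 0 := by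
  rw [stp, Real.smoothTransition.zero_of_nonpos]
  exact div_nonpos_of_nonpos_of_nonneg (by linarith) (by positivity)

theorem stp_one {a θ : ℝ} (hθ : a + π / 8 ≤ θ) : stp a θ = 1 := by
  rw [stp, Real.smoothTransition.one_of_one_le]
  rw [le_div_iff₀ (by positivity)]
  linarith

/-- the partition of unity -/
def prt : Fin 5 → ℝ → ℝ := ![fun θ => 1 - stp (-(3 * π / 4)) θ,
  fun θ => stp (-(3 * π / 4)) θ - stp (-(π / 4)) θ, fun θ => stp (-(π / 4)) θ - stp (π / 4) θ,
  fun θ => stp (π / 4) θ - stp (3 * π / 4) θ, fun θ => stp (3 * π / 4) θ]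

/-- the sectors which contain the pieces -/
def sect : Fin 5 → Set ℝ := ![Iic (-(5 * π / 8)), Icc (-(7 * π / 8)) (-(π / 8)),
  Icc (-(3 * π / 8)) (3 * π / 8), Icc (π / 8) (7 * π / 8), Ici (5 * π / 8)]

theorem prt_contDiff {n : ℕ∞} (i : Fin 5) : ContDiff ℝ n (prt i) := by
  have h1 := stp_contDiff (n := n) (-(3 * π / 4))
  have h2 := stp_contDiff (n := n) (-(π / 4))
  have h3 := stp_contDiff (n := n) (π / 4)
  have h4 := stp_contDiff (n := n) (3 * π / 4)
  fin_cases i
  · exact contDiff_const.sub h1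
  · exact h1.sub h2
  · exact h2.sub h3
  · exact h3.sub h4
  · exact h4

theorem prt_sum (θ : ℝ) : ∑ i, prt i θ = 1 := by
  rw [Fin.sum_univ_five]
  simp only [prt, Matrix.cons_val_zero, Matrix.cons_val_one, Matrix.cons_val]
  ring

theorem sect_closed (i : Fin 5) : IsClosed (sect i) := by
  fin_cases i
  · exact isClosed_Iic
  · exact isClosed_Icc
  · exact isClosed_Icc
  · exact isClosed_Icc
  · exact isClosed_Ici

theorem prt_zero (i : Fin 5) {θ : ℝ} (hθ : θ ∉ sect i) : prt i θ = 0 := by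
  have hp := Real.pi_pos
  fin_cases i
  · change ¬ θ ≤ -(5 * π / 8) at hθ
    push Not at hθ
    change 1 - stp (-(3 * π / 4)) θ = 0
    rw [stp_one (by linarith)]
    ring
  · change ¬ (-(7 * π / 8) ≤ θ ∧ θ ≤ -(π / 8)) at hθ
    change stp (-(3 * π / 4)) θ - stp (-(π / 4)) θ = 0
    by_cases h : -(7 * π / 8) ≤ θ
    · have : -(π / 8) < θ := by
        by_contra hcon
        push Not at hcon
        exact hθ ⟨h, hcon⟩
      rw [stp_one (by linarith), stp_one (by linarith)]
      ring
    · push Not at h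
      rw [stp_zero (by linarith), stp_zero (by linarith)]
      ring
  · change ¬ (-(3 * π / 8) ≤ θ ∧ θ ≤ 3 * π / 8) at hθ
    change stp (-(π / 4)) θ - stp (π / 4) θ = 0
    by_cases h : -(3 * π / 8) ≤ θ
    · have : 3 * π / 8 < θ := by
        by_contra hcon
        push Not at hcon
        exact hθ ⟨h, hcon⟩
      rw [stp_one (by linarith), stp_one (by linarith)]
      ring
    · push Not at h
      rw [stp_zero (by linarith), stp_zero (by linarith)]
      ring
  · change ¬ (π / 8 ≤ θ ∧ θ ≤ 7 * π / 8) at hθ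
    change stp (π / 4) θ - stp (3 * π / 4) θ = 0
    by_cases h : π / 8 ≤ θ
    · have : 7 * π / 8 < θ := by
        by_contra hcon
        push Not at hcon
        exact hθ ⟨h, hcon⟩
      rw [stp_one (by linarith), stp_one (by linarith)]
      ring
    · push Not at h
      rw [stp_zero (by linarith), stp_zero (by linarith)]
      ring
  · change ¬ (5 * π / 8 ≤ θ) at hθ
    push Not at hθ
    change stp (3 * π / 4) θ = 0
    rw [stp_zero (by linarith)]

/-- **the angular profile and its pieces** -/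
theorem exists_tent {d h δ : ℝ} (hd : 0 < d) (hd2 : d < 2 * π) (hh : 0 < h) (hδ : 0 < δ) :
    ∃ (u : ℝ → ℝ) (v : Fin 5 → ℝ → ℝ),
      ContDiff ℝ ((⊤ : ℕ∞) : WithTop ℕ∞) u ∧
      (∀ i, ContDiff ℝ ((⊤ : ℕ∞) : WithTop ℕ∞) (v i)) ∧
      (∀ θ, u θ = ∑ i, v i θ) ∧ tsupport u ⊆ Ioo (-π) π ∧
      (∀ i, tsupport (v i) ⊆ Ioo (-π) π) ∧ (∀ i, tsupport (v i) ⊆ sect i) ∧
      (∀ θ, 0 ≤ u θ ∧ u θ ≤ h) ∧
      (∀ θ, |slp d h θ - deriv u θ| ≤ h / d + h / (2 * π - d)) ∧
      (∫ θ in Ioo (-π) π, u θ ^ 2 ≤ 2 * π * h ^ 2) ∧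
      (∫ θ in Ioo (-π) π, (slp d h θ - deriv u θ) ^ 2 ≤ δ) ∧
      h ^ 2 / d + h ^ 2 / (2 * π - d) - δ ≤ ∫ θ in Ioo (-π) π, deriv u θ ^ 2 := by
  have hdd : 0 < 2 * π - d := by linarith
  have p1 : 0 < h / d := div_pos hh hd
  have p2 : 0 < h / (2 * π - d) := div_pos hh hdd
  have hK : 0 < (h / d + h / (2 * π - d)) ^ 2 * (8 * π) := by positivity
  obtain ⟨e, he, he1, he2⟩ : ∃ e : ℝ, 0 < e ∧ e ≤ 1 / 4 ∧
      (h / d + h / (2 * π - d)) ^ 2 * (8 * π * e) ≤ δ := by
    refine ⟨min (1 / 4) (δ / ((h / d + h / (2 * π - d)) ^ 2 * (8 * π))),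
      lt_min (by norm_num) (div_pos hδ hK), min_le_left _ _, ?_⟩
    rw [← mul_assoc]
    calc _ ≤ (h / d + h / (2 * π - d)) ^ 2 * (8 * π) *
          (δ / ((h / d + h / (2 * π - d)) ^ 2 * (8 * π))) :=
          mul_le_mul_of_nonneg_left (min_le_right _ _) hK.le
      _ = δ := mul_div_cancel₀ _ hK.ne'
  have ht := tent_tsupport (h := h) hd hd2 he he1
  refine ⟨tent d h e, fun i θ => tent d h e θ * prt i θ, tent_contDiff d h e,
    fun i => (tent_contDiff d h e).mul (prt_contDiff i), ?_, ht, ?_, ?_, ?_, ?_, ?_, ?_, ?_⟩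
  · intro θ
    rw [← Finset.mul_sum, prt_sum, mul_one]
  · intro i
    exact (tsupport_mul_subset_left).trans ht
  · intro i
    refine closure_minimal ?_ (sect_closed i)
    intro θ hθ
    by_contra hcon
    exact hθ (by simp only [prt_zero i hcon, mul_zero])
  · exact fun θ => ⟨tent_nonneg hd hd2 hh he θ, tent_le hh he θ⟩
  · exact fun θ => tent_deriv_le hd hd2 hh θ
  · calc ∫ θ in Ioo (-π) π, tent d h e θ ^ 2 ≤ ∫ _ in Ioo (-π) π, h ^ 2 := by
          refine setIntegral_mono_on ?_ (integrableOn_const (by simp)) measurableSet_Ioo ?_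
          · exact ((((tent_contDiff (n := 0) d h e).continuous).pow 2).integrableOn_Icc
              (a := -π) (b := π)).mono_set Ioo_subset_Icc_self
          · intro θ _
            exact pow_le_pow_left₀ (tent_nonneg hd hd2 hh he θ) (tent_le hh he θ) 2
      _ = 2 * π * h ^ 2 := by
          rw [setIntegral_const, Real.volume_real_Ioo_of_le (by linarith [Real.pi_pos]),
            smul_eq_mul]
          ring
  · exact (tent_energy_diff hd hd2 hh he).trans he2
  · exact (sub_le_sub_left he2 _).trans (tent_energy_ge hd hd2 hh he)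

end

end Vale.Agent.P159.T1.D.H414
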